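import Vale.Agent.Results.P230.ProductBodies

/-!
# P230: lattice covering density of Cartesian products of bodies

Every set with nonempty interior admits a lattice covering, so the inequalities
`θ_L(K × L) ≤ θ_L(K) θ_L(L)` and `θ_L(K × [0,1]^m) ≤ θ_L(K)` hold for all such sets, in particular
for all convex bodies.
-/

open MeasureTheory

namespace Vale.Agent.Results.P230.AProductsOfBodies

open Vale.Agent.Results.P230.ProductBodies

theorem exists_latCover {ι : Type} [Fintype ι] [DecidableEq ι] (K : Set (ι → ℝ))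
    (h : (interior K).Nonempty) : ∃ A : Matrix ι ι ℝ, LatCover K A := by
  obtain ⟨c, hc⟩ := h
  obtain ⟨ε, hε, hball⟩ := Metric.mem_nhds_iff.1 (mem_interior_iff_mem_nhds.1 hc)
  set r : ℝ := ε / 2 with hr
  have hr0 : 0 < r := by positivity
  refine ⟨r • (1 : Matrix ι ι ℝ), ?_, fun x => ?_⟩
  · rw [Matrix.det_smul, Matrix.det_one, mul_one]
    exact pow_ne_zero _ hr0.ne'
  · refine ⟨fun i => ⌊(x i - c i) / r⌋, hball ?_⟩
    rw [Metric.mem_ball, dist_pi_lt_iff hε]
    intro i
    simp only [Matrix.smul_mulVec, Matrix.one_mulVec, Pi.sub_apply, Pi.smul_apply, smul_eq_mul]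
    rw [Real.dist_eq]
    have h1 := Int.floor_le ((x i - c i) / r)
    have h2 := Int.lt_floor_add_one ((x i - c i) / r)
    rw [le_div_iff₀ hr0] at h1
    rw [div_lt_iff₀ hr0] at h2
    rw [abs_lt]
    constructor <;> nlinarith

/-- For all sets `K ⊆ ℝ^ι`, `L ⊆ ℝ^κ` with nonempty interior (in particular all convex bodies):
both admit lattice coverings, `θ_L(K × L) ≤ θ_L(K) θ_L(L)`, and `θ_L(K × [0,1]^κ) ≤ θ_L(K)`. -/
theorem result (ι κ : Type) [Fintype ι] [Fintype κ] [DecidableEq ι] [DecidableEq κ]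
    (K : Set (ι → ℝ)) (hK : (interior K).Nonempty) :
    (∃ A : Matrix ι ι ℝ, LatCover K A) ∧
    (∀ L : Set (κ → ℝ), (interior L).Nonempty → thetaL (prod K L) ≤ thetaL K * thetaL L) ∧
    thetaL (prod K (cube κ)) ≤ thetaL K :=
  ⟨exists_latCover K hK,
    fun L hL => (ProductBodies.result ι κ K).2.1 L (exists_latCover K hK) (exists_latCover L hL),
    (ProductBodies.result ι κ K).2.2 (exists_latCover K hK)⟩

end Vale.Agent.Results.P230.AProductsOfBodies
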