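import Mathlib

/-!
# P230: the lattice covering density is submultiplicative over Cartesian products

If `K + A ℤ^n = ℝ^n` and `L + B ℤ^m = ℝ^m`, then `K × L` together with the product lattice covers
`ℝ^(n+m)`, and the density of this covering is the product of the two densities.  Hence
`θ_L(K × L) ≤ θ_L(K) θ_L(L)` and `θ_L(K × [0,1]^m) ≤ θ_L(K)`.
-/

open MeasureTheory

namespace Vale.Agent.Results.P230.ProductBodies

variable {ι κ : Type} [Fintype ι] [Fintype κ] [DecidableEq ι] [DecidableEq κ]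

/-- The Cartesian product `K × L` in `ℝ^(ι ⊕ κ)`. -/
def prod (K : Set (ι → ℝ)) (L : Set (κ → ℝ)) : Set (ι ⊕ κ → ℝ) :=
  {z | (fun i => z (Sum.inl i)) ∈ K ∧ (fun j => z (Sum.inr j)) ∈ L}

/-- The translates of `K` by the full-rank lattice `A ℤ^ι` (`det A ≠ 0`) cover the space. -/
def LatCover (K : Set (ι → ℝ)) (A : Matrix ι ι ℝ) : Prop :=
  A.det ≠ 0 ∧ ∀ x : ι → ℝ, ∃ z : ι → ℤ, x - A.mulVec (fun i => (z i : ℝ)) ∈ K

/-- The density `vol K / det Λ` of the lattice arrangement `K + A ℤ^ι`. -/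
noncomputable def dens (K : Set (ι → ℝ)) (A : Matrix ι ι ℝ) : ℝ := (volume K).toReal / |A.det|

/-- The lattice covering density `θ_L(K)`. -/
noncomputable def thetaL (K : Set (ι → ℝ)) : ℝ :=
  sInf {δ | ∃ A : Matrix ι ι ℝ, LatCover K A ∧ δ = dens K A}

/-- The unit cube `[0,1]^κ`. -/
def cube (κ : Type) : Set (κ → ℝ) := {y | ∀ j, 0 ≤ y j ∧ y j ≤ 1}

theorem volume_prod (A : Set (ι → ℝ)) (B : Set (κ → ℝ)) :
    volume (prod A B) = volume A * volume B := by
  set e := MeasurableEquiv.sumPiEquivProdPi (fun _ : ι ⊕ κ => ℝ) with he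
  have hmp := volume_measurePreserving_sumPiEquivProdPi (fun _ : ι ⊕ κ => ℝ)
  have hpre : prod A B = e ⁻¹' (A ×ˢ B) := by
    ext z
    rfl
  rw [hpre, hmp.measure_preimage_equiv, Measure.volume_eq_prod, Measure.prod_prod]

theorem latCover_prod {K : Set (ι → ℝ)} {L : Set (κ → ℝ)} {A : Matrix ι ι ℝ} {B : Matrix κ κ ℝ}
    (hA : LatCover K A) (hB : LatCover L B) :
    LatCover (prod K L) (Matrix.fromBlocks A 0 0 B) := by
  refine ⟨?_, fun x => ?_⟩
  · rw [Matrix.det_fromBlocks_zero₂₁]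
    exact mul_ne_zero hA.1 hB.1
  · obtain ⟨z, hz⟩ := hA.2 (fun i => x (Sum.inl i))
    obtain ⟨w, hw⟩ := hB.2 (fun j => x (Sum.inr j))
    refine ⟨Sum.elim z w, ?_, ?_⟩
    · convert hz using 1
      funext i
      simp [Matrix.fromBlocks_mulVec, Function.comp_def]
    · convert hw using 1
      funext j
      simp [Matrix.fromBlocks_mulVec, Function.comp_def]

theorem dens_prod (K : Set (ι → ℝ)) (L : Set (κ → ℝ)) (A : Matrix ι ι ℝ) (B : Matrix κ κ ℝ) :
    dens (prod K L) (Matrix.fromBlocks A 0 0 B) = dens K A * dens L B := by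
  unfold dens
  rw [volume_prod, ENNReal.toReal_mul, Matrix.det_fromBlocks_zero₂₁, abs_mul, mul_div_mul_comm]

theorem dens_nonneg (K : Set (ι → ℝ)) (A : Matrix ι ι ℝ) : 0 ≤ dens K A :=
  div_nonneg ENNReal.toReal_nonneg (abs_nonneg _)

theorem bddBelow_set (K : Set (ι → ℝ)) :
    BddBelow {δ | ∃ A : Matrix ι ι ℝ, LatCover K A ∧ δ = dens K A} :=
  ⟨0, by rintro _ ⟨A, -, rfl⟩; exact dens_nonneg K A⟩

theorem thetaL_nonneg (K : Set (ι → ℝ)) : 0 ≤ thetaL K :=
  Real.sInf_nonneg (by rintro _ ⟨A, -, rfl⟩; exact dens_nonneg K A)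

theorem thetaL_le {K : Set (ι → ℝ)} {A : Matrix ι ι ℝ} (hA : LatCover K A) :
    thetaL K ≤ dens K A :=
  csInf_le (bddBelow_set K) ⟨A, hA, rfl⟩

theorem thetaL_prod_le (K : Set (ι → ℝ)) (L : Set (κ → ℝ)) (hK : ∃ A, LatCover K A)
    (hL : ∃ B, LatCover L B) : thetaL (prod K L) ≤ thetaL K * thetaL L := by
  set c := thetaL (prod K L) with hc
  have hc0 : 0 ≤ c := thetaL_nonneg _
  have h1 : ∀ A B, LatCover K A → LatCover L B → c ≤ dens K A * dens L B := by
    intro A B hA hB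
    rw [← dens_prod]
    exact thetaL_le (latCover_prod hA hB)
  have hKne : {δ | ∃ A : Matrix ι ι ℝ, LatCover K A ∧ δ = dens K A}.Nonempty := by
    obtain ⟨A, hA⟩ := hK
    exact ⟨_, A, hA, rfl⟩
  have hLne : {δ | ∃ B : Matrix κ κ ℝ, LatCover L B ∧ δ = dens L B}.Nonempty := by
    obtain ⟨B, hB⟩ := hL
    exact ⟨_, B, hB, rfl⟩
  have h2 : ∀ B, LatCover L B → c ≤ thetaL K * dens L B := by
    intro B hB
    rcases (dens_nonneg L B).eq_or_lt with h0 | hpos
    · obtain ⟨A, hA⟩ := hK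
      have := h1 A B hA hB
      rw [← h0, mul_zero] at this ⊢
      exact this
    · rw [← div_le_iff₀ hpos]
      refine le_csInf hKne ?_
      rintro _ ⟨A, hA, rfl⟩
      rw [div_le_iff₀ hpos]
      exact h1 A B hA hB
  rcases (thetaL_nonneg K).eq_or_lt with h0 | hpos
  · obtain ⟨B, hB⟩ := hL
    have := h2 B hB
    rw [← h0, zero_mul] at this ⊢
    exact this
  · rw [mul_comm, ← div_le_iff₀ hpos]
    refine le_csInf hLne ?_
    rintro _ ⟨B, hB, rfl⟩
    rw [div_le_iff₀ hpos, mul_comm]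
    exact h2 B hB

theorem latCover_cube : LatCover (cube κ) (1 : Matrix κ κ ℝ) := by
  refine ⟨by simp, fun x => ⟨fun j => ⌊x j⌋, fun j => ?_⟩⟩
  simp only [Matrix.one_mulVec, Pi.sub_apply]
  exact ⟨by linarith [Int.floor_le (x j)], by linarith [Int.lt_floor_add_one (x j)]⟩

theorem dens_cube : dens (cube κ) (1 : Matrix κ κ ℝ) = 1 := by
  have h : cube κ = Set.Icc (0 : κ → ℝ) 1 := by
    ext y
    simp only [cube, Set.mem_Icc, Pi.le_def]
    exact forall_and
  unfold dens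
  rw [h, Real.volume_Icc_pi]
  simp

/-- (1) The product of two lattice coverings is a lattice covering, and its density is the product
of the densities.  (2) `θ_L(K × L) ≤ θ_L(K) θ_L(L)` whenever `K` and `L` admit lattice coverings.
(3) `θ_L(K × [0,1]^κ) ≤ θ_L(K)`. -/
theorem result (ι κ : Type) [Fintype ι] [Fintype κ] [DecidableEq ι] [DecidableEq κ]
    (K : Set (ι → ℝ)) :
    (∀ (L : Set (κ → ℝ)) (A : Matrix ι ι ℝ) (B : Matrix κ κ ℝ), LatCover K A → LatCover L B →
      LatCover (prod K L) (Matrix.fromBlocks A 0 0 B) ∧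
      dens (prod K L) (Matrix.fromBlocks A 0 0 B) = dens K A * dens L B) ∧
    (∀ L : Set (κ → ℝ), (∃ A, LatCover K A) → (∃ B, LatCover L B) →
      thetaL (prod K L) ≤ thetaL K * thetaL L) ∧
    ((∃ A, LatCover K A) → thetaL (prod K (cube κ)) ≤ thetaL K) := by
  refine ⟨fun L A B hA hB => ⟨latCover_prod hA hB, dens_prod K L A B⟩,
    fun L hK hL => thetaL_prod_le K L hK hL, fun hK => ?_⟩
  have h1 := thetaL_prod_le K (cube κ) hK ⟨1, latCover_cube⟩
  have h2 : thetaL (cube κ) ≤ 1 := by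
    have := thetaL_le (latCover_cube (κ := κ))
    rwa [dens_cube] at this
  calc thetaL (prod K (cube κ)) ≤ thetaL K * thetaL (cube κ) := h1
    _ ≤ thetaL K * 1 := mul_le_mul_of_nonneg_left h2 (thetaL_nonneg K)
    _ = thetaL K := mul_one _

end Vale.Agent.Results.P230.ProductBodies
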